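import Mathlib

/-! # TSYM, abstract part: a good level from differential inequalities

`v` = squared norm of the martingale field, `e` = its Dirichlet energy, `A` = squared norm of the
antisymmetric part of the Jacobian, `d2`, `fl`, `da`, `cr` the quantities in their derivatives. -/

namespace Vale.Agent.P245.H607t

open Set Real

/-- monotonicity from the sign of the derivative on the open interval -/
theorem anti_of_deriv {s T : ℝ} {f f' : ℝ → ℝ} (hc : ContinuousOn f (Icc s T))
    (hd : ∀ x ∈ Ioo s T, HasDerivAt f (f' x) x) (hn : ∀ x ∈ Ioo s T, f' x ≤ 0) :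
    AntitoneOn f (Icc s T) := by
  refine antitoneOn_of_deriv_nonpos (convex_Icc s T) hc ?_ ?_
  · rw [interior_Icc]
    exact fun x hx => (hd x hx).differentiableAt.differentiableWithinAt
  · rw [interior_Icc]
    intro x hx
    rw [(hd x hx).deriv]
    exact hn x hx

theorem abs_good {s T κ K m : ℝ} (hs : 0 < s) (hsT : s < T) (hκ : 0 < κ) (hK : 0 ≤ K)
    (hm : 0 ≤ m) {v e A d2 fl da cr : ℝ → ℝ}
    (cv : ContinuousOn v (Icc s T)) (ce : ContinuousOn e (Icc s T))
    (cA : ContinuousOn A (Icc s T))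
    (hv : ∀ ρ ∈ Ioo s T, HasDerivAt v (-(e ρ)) ρ)
    (he : ∀ ρ ∈ Ioo s T, HasDerivAt e (-(d2 ρ + 2 * fl ρ)) ρ)
    (hA : ∀ ρ ∈ Ioo s T, HasDerivAt A (-(da ρ) - 4 * cr ρ) ρ)
    (d2n : ∀ ρ ∈ Ioo s T, 0 ≤ d2 ρ) (fln : ∀ ρ ∈ Ioo s T, 0 ≤ fl ρ)
    (dan : ∀ ρ ∈ Ioo s T, 0 ≤ da ρ) (An : ∀ ρ ∈ Icc s T, 0 ≤ A ρ)
    (e0 : 0 ≤ e s)
    (hcr : ∀ ρ ∈ Ioo s T, -(4 * cr ρ) ≤ A ρ / (2 * (T - s)) + 8 * (T - s) * fl ρ / s)
    (hG : ∀ ρ ∈ Icc s T, -m ≤ 2 * κ * e ρ - v ρ) (hGs : 2 * κ * e s - v s ≤ m)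
    (hA0 : A s = 0) :
    ∃ c ∈ Ioo s T,
      2 * κ * (d2 c + 2 * fl c) - e c + K * κ * da c
        ≤ 2 * m / (T - s) + 8 * K * m / s + 4 * K * (T - s) / s * e s ∧
      A c ≤ 4 * (T - s) / (κ * s) * ((T - s) * e s + 2 * m) ∧
      e s - (2 * m + (T - s) * e s) / (2 * κ) ≤ e c ∧ e c ≤ e s := by
  set L : ℝ := T - s with hL
  have hL0 : 0 < L := by rw [hL]; linarith
  have hsI : s ∈ Icc s T := ⟨le_rfl, hsT.le⟩
  have hTI : T ∈ Icc s T := ⟨hsT.le, le_rfl⟩
  -- `e` is nonincreasing
  have ea : AntitoneOn e (Icc s T) := anti_of_deriv ce he fun x hx => by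
    have h1 := d2n x hx
    have h2 := fln x hx
    linarith
  have ees : ∀ ρ ∈ Icc s T, e ρ ≤ e s := fun ρ hρ => ea hsI hρ hρ.1
  -- bound of `A`
  set a : ℝ := L / (κ * s) with ha
  have ha0 : 0 < a := by rw [ha]; positivity
  -- z := A + 2 a (G - G s + 2 m), multiplied by exp (-(ρ - s) / (2 L))
  have hz : ∀ ρ ∈ Icc s T, A ρ ≤ 2 * (2 * a * (2 * m) + 2 * a * (L * e s)) := by
    intro ρ hρ
    have anti : AntitoneOn (fun ρ => exp (-((ρ - s) / (2 * L)))
        * (A ρ + 2 * a * ((2 * κ * e ρ - v ρ) - (2 * κ * e s - v s) + 2 * m))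
        - 2 * a * e s * (ρ - s)) (Icc s T) := by
      refine anti_of_deriv (f' := fun ρ => (exp (-((ρ - s) / (2 * L))) * (-(1 / (2 * L))))
        * (A ρ + 2 * a * ((2 * κ * e ρ - v ρ) - (2 * κ * e s - v s) + 2 * m))
        + exp (-((ρ - s) / (2 * L)))
          * ((-(da ρ) - 4 * cr ρ) + 2 * a * (2 * κ * (-(d2 ρ + 2 * fl ρ)) - (-(e ρ))))
        - 2 * a * e s) ?_ ?_ ?_
      · refine ContinuousOn.sub (ContinuousOn.mul (by fun_prop) ?_) (by fun_prop)
        exact cA.add (continuousOn_const.mul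
          (((((continuousOn_const.mul ce).sub cv).sub continuousOn_const)).add continuousOn_const))
      · intro x hx
        have h1 : HasDerivAt (fun ρ : ℝ => exp (-((ρ - s) / (2 * L))))
            (exp (-((x - s) / (2 * L))) * (-(1 / (2 * L)))) x :=
          ((((hasDerivAt_id x).sub_const s).div_const (2 * L)).neg).exp
        have h2 := (((((he x hx).const_mul (2 * κ)).sub (hv x hx)).sub_const
          (2 * κ * e s - v s)).add_const (2 * m)).const_mul (2 * a)
        have h3 := h1.mul ((hA x hx).add h2)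
        have h4 : HasDerivAt (fun ρ : ℝ => 2 * a * e s * (ρ - s)) (2 * a * e s) x := by
          simpa using ((hasDerivAt_id x).sub_const s).const_mul (2 * a * e s)
        exact h3.sub h4
      · intro x hx
        have hxI : x ∈ Icc s T := ⟨hx.1.le, hx.2.le⟩
        have q1 : (0:ℝ) < exp (-((x - s) / (2 * L))) := exp_pos _
        have q2 : exp (-((x - s) / (2 * L))) ≤ 1 := by
          rw [exp_le_one_iff]
          have : 0 ≤ (x - s) / (2 * L) := div_nonneg (by linarith [hx.1]) (by linarith)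
          linarith
        have c1 := hcr x hx
        have c2 := dan x hx
        have c3 := d2n x hx
        have c4 := fln x hx
        have c5 := ees x hxI
        have c6 := hG x hxI
        have c7 := An x hxI
        have c8 : (0:ℝ) ≤ 2 * a * ((2 * κ * e x - v x) - (2 * κ * e s - v s) + 2 * m) :=
          mul_nonneg (by positivity) (by linarith)
        -- the bracket
        have k1 : 8 * L * fl x / s = 2 * a * (4 * κ * fl x) := by
          rw [ha]; field_simp; ring
        have k2 : -(1 / (2 * L)) * (A x + 2 * a * ((2 * κ * e x - v x) - (2 * κ * e s - v s)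
            + 2 * m)) + ((-(da x) - 4 * cr x)
            + 2 * a * (2 * κ * (-(d2 x + 2 * fl x)) - (-(e x)))) ≤ 2 * a * e s := by
          have k3 : A x / (2 * L) = 1 / (2 * L) * A x := by ring
          have k4 : 0 ≤ 1 / (2 * L) * (2 * a * ((2 * κ * e x - v x) - (2 * κ * e s - v s)
            + 2 * m)) := mul_nonneg (by positivity) c8
          have k5 : 0 ≤ 2 * a * (2 * κ * d2 x) := by positivity
          have k6 : 0 ≤ 2 * a * (e s - e x) := mul_nonneg (by positivity) (by linarith)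
          rw [k1, k3] at c1
          linarith [c1, k4, k5, k6, c2]
        have k7 : 0 ≤ 2 * a * e s := by positivity
        calc _ = exp (-((x - s) / (2 * L))) * (-(1 / (2 * L)) * (A x + 2 * a *
              ((2 * κ * e x - v x) - (2 * κ * e s - v s) + 2 * m)) + ((-(da x) - 4 * cr x)
            + 2 * a * (2 * κ * (-(d2 x + 2 * fl x)) - (-(e x))))) - 2 * a * e s := by ring
          _ ≤ exp (-((x - s) / (2 * L))) * (2 * a * e s) - 2 * a * e s := by
              have := mul_le_mul_of_nonneg_left k2 q1.le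
              linarith
          _ ≤ 1 * (2 * a * e s) - 2 * a * e s := by
              have := mul_le_mul_of_nonneg_right q2 k7
              linarith
          _ = 0 := by ring
    have h1 := anti hsI hρ hρ.1
    simp only [sub_self, zero_div, neg_zero, exp_zero, one_mul, hA0, zero_add, mul_zero,
      sub_zero] at h1
    have hm2 := hG ρ hρ
    have c8 : (0:ℝ) ≤ 2 * a * ((2 * κ * e ρ - v ρ) - (2 * κ * e s - v s) + 2 * m) :=
      mul_nonneg (by positivity) (by linarith)
    have q3 : (1:ℝ) / 2 ≤ exp (-((ρ - s) / (2 * L))) := by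
      have h2 : (ρ - s) / (2 * L) ≤ 1 / 2 := by
        rw [div_le_div_iff₀ (by linarith) (by norm_num)]
        have : ρ - s ≤ L := by rw [hL]; linarith [hρ.2]
        linarith
      have h3 := add_one_le_exp (-((ρ - s) / (2 * L)))
      linarith
    have c9 := An ρ hρ
    have c10 : 1 / 2 * (A ρ) ≤ exp (-((ρ - s) / (2 * L))) * (A ρ + 2 * a * ((2 * κ * e ρ - v ρ)
        - (2 * κ * e s - v s) + 2 * m)) :=
      mul_le_mul q3 (by linarith) c9 (exp_pos _).le
    have c11 : 2 * a * e s * (ρ - s) ≤ 2 * a * e s * L :=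
      mul_le_mul_of_nonneg_left (by rw [hL]; linarith [hρ.2]) (by positivity)
    linarith [h1, c10, c11]
  have hz' : ∀ ρ ∈ Icc s T, A ρ ≤ 4 * L / (κ * s) * (L * e s + 2 * m) := by
    intro ρ hρ
    have := hz ρ hρ
    have e1 : 4 * L / (κ * s) * (L * e s + 2 * m)
        = 2 * (2 * a * (2 * m) + 2 * a * (L * e s)) := by
      rw [ha]; ring
    linarith
  -- mean value theorem
  have hcH : ContinuousOn (fun ρ => (1 + 2 * K * L / s) * (2 * κ * e ρ - v ρ) + K * κ * A ρ)
      (Icc s T) :=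
    (continuousOn_const.mul ((continuousOn_const.mul ce).sub cv)).add (continuousOn_const.mul cA)
  obtain ⟨c, hc, hc'⟩ := exists_hasDerivAt_eq_slope
    (fun ρ => (1 + 2 * K * L / s) * (2 * κ * e ρ - v ρ) + K * κ * A ρ)
    (fun ρ => (1 + 2 * K * L / s) * (2 * κ * (-(d2 ρ + 2 * fl ρ)) - (-(e ρ)))
      + K * κ * (-(da ρ) - 4 * cr ρ)) hsT hcH
    (fun x hx => ((((he x hx).const_mul (2 * κ)).sub (hv x hx)).const_mul _).add
      ((hA x hx).const_mul (K * κ)))
  have hcI : c ∈ Icc s T := ⟨hc.1.le, hc.2.le⟩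
  refine ⟨c, hc, ?_, hz' c hcI, ?_, ees c hcI⟩
  · rw [← hL] at hc'
    have d1 : ((1 + 2 * K * L / s) * (2 * κ * (-(d2 c + 2 * fl c)) - (-(e c)))
      + K * κ * (-(da c) - 4 * cr c)) * L
      = ((1 + 2 * K * L / s) * (2 * κ * e T - v T) + K * κ * A T)
        - ((1 + 2 * K * L / s) * (2 * κ * e s - v s) + K * κ * A s) := by
      rw [hc']; field_simp
    rw [hA0] at d1
    have g1 := hG T hTI
    have g2 := An T hTI
    have g3 : 0 ≤ 2 * K * L / s := by positivity
    have d2' : -((1 + 2 * K * L / s) * (2 * m))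
        ≤ ((1 + 2 * K * L / s) * (2 * κ * (-(d2 c + 2 * fl c)) - (-(e c)))
      + K * κ * (-(da c) - 4 * cr c)) * L := by
      rw [d1]
      have g4 : 0 ≤ K * κ * A T := by positivity
      have g5 : (1 + 2 * K * L / s) * (-m) ≤ (1 + 2 * K * L / s) * (2 * κ * e T - v T) :=
        mul_le_mul_of_nonneg_left g1 (by linarith)
      have g6 : (1 + 2 * K * L / s) * (2 * κ * e s - v s) ≤ (1 + 2 * K * L / s) * m :=
        mul_le_mul_of_nonneg_left hGs (by linarith)
      linarith
    have d3 : -((1 + 2 * K * L / s) * (2 * m)) / L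
        ≤ (1 + 2 * K * L / s) * (2 * κ * (-(d2 c + 2 * fl c)) - (-(e c)))
      + K * κ * (-(da c) - 4 * cr c) := by
      rw [div_le_iff₀ hL0]; exact d2'
    have c1 := hcr c hc
    have c2 := hz' c hcI
    have c3 := ees c hcI
    have c4 := d2n c hc
    have c5 := fln c hc
    -- K κ (-4 cr) ≤ K κ (A / (2L) + 8 L fl / s)
    have f1 : K * κ * (-(4 * cr c)) ≤ K * κ * (A c / (2 * L) + 8 * L * fl c / s) :=
      mul_le_mul_of_nonneg_left c1 (by positivity)
    have f2 : K * κ * (A c / (2 * L)) ≤ K * κ * ((4 * L / (κ * s) * (L * e s + 2 * m)) / (2 * L)) :=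
      mul_le_mul_of_nonneg_left (div_le_div_of_nonneg_right c2 (by positivity)) (by positivity)
    have f3 : K * κ * ((4 * L / (κ * s) * (L * e s + 2 * m)) / (2 * L))
        = 2 * K / s * (L * e s + 2 * m) := by
      field_simp; ring
    have f4 : K * κ * (8 * L * fl c / s) = 2 * K * L / s * (2 * κ * (2 * fl c)) := by
      field_simp; ring
    have f5 : 0 ≤ 2 * K * L / s * (2 * κ * d2 c) := by positivity
    have f6 : 2 * K * L / s * e c ≤ 2 * K * L / s * e s := mul_le_mul_of_nonneg_left c3 g3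
    have f7 : (1 + 2 * K * L / s) * (2 * m) / L = 2 * m / L + 4 * K * m / s := by
      field_simp; ring
    have f8 : -((1 + 2 * K * L / s) * (2 * m)) / L = -(2 * m / L + 4 * K * m / s) := by
      rw [← f7]; ring
    rw [f8] at d3
    have f9 : 2 * K / s * (L * e s + 2 * m) = 2 * K * L / s * e s + 4 * K * m / s := by ring
    have f10 : 4 * K * L / s * e s = 2 * (2 * K * L / s * e s) := by ring
    have f11 : 8 * K * m / s = 2 * (4 * K * m / s) := by ring
    rw [f10, f11]
    rw [f3, f9] at f2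
    have f12 : K * κ * (A c / (2 * L) + 8 * L * fl c / s)
        = K * κ * (A c / (2 * L)) + K * κ * (8 * L * fl c / s) := by ring
    rw [f12, f4] at f1
    linarith [d3, f1, f2, f5, f6]
  · -- lower bound for `e c`
    have va : AntitoneOn (fun ρ => -(v ρ) - e s * (ρ - s)) (Icc s T) := by
      refine anti_of_deriv (f' := fun ρ => -(-(e ρ)) - e s)
        (cv.neg.sub (by fun_prop)) (fun x hx => ?_) fun x hx => ?_
      · have h4 : HasDerivAt (fun ρ : ℝ => e s * (ρ - s)) (e s) x := by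
          simpa using ((hasDerivAt_id x).sub_const s).const_mul (e s)
        exact (hv x hx).neg.sub h4
      · have := ees x ⟨hx.1.le, hx.2.le⟩
        linarith
    have h1 := va hsI hcI hc.1.le
    simp only [sub_self, mul_zero, sub_zero] at h1
    have h2 := hG c hcI
    have h3 : e s * (c - s) ≤ e s * L := mul_le_mul_of_nonneg_left (by rw [hL]; linarith [hc.2]) e0
    rw [sub_le_iff_le_add, ← sub_le_iff_le_add']
    rw [le_div_iff₀ (by positivity)]
    linarith [h1, h2, h3, hGs]

end Vale.Agent.P245.H607t
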